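import Vale.Agent.P208.Space

namespace Vale.Agent.Results.P208.Counterexample

/-- There is a doubling subset of real `ℓ₂` with no bi-Lipschitz embedding into any `ℝ^k`. -/
theorem result :
    ∃ X : Set (lp (fun _ : ℕ => ℝ) 2),
      (∃ lam : ℕ, ∀ (x : X) (R : ℝ), 0 < R → ∃ C : Finset X, C.card ≤ lam ∧
        Metric.closedBall x R ⊆ ⋃ c ∈ C, Metric.ball c (R / 2)) ∧
      ∀ (k : ℕ) (D a : ℝ) (f : X → EuclideanSpace ℝ (Fin k)), 0 < a →
        ¬ ∀ x y : X, a * dist x y ≤ ‖f x - f y‖ ∧ ‖f x - f y‖ ≤ D * a * dist x y := by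
  obtain ⟨e, he⟩ := Vale.Agent.P208.exists_orthonormal
  exact ⟨Vale.Agent.P208.XX e, Vale.Agent.P208.doubling he,
    fun k D a f ha => Vale.Agent.P208.no_embedding he D a f ha⟩

end Vale.Agent.Results.P208.Counterexample
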